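import Vale.Agent.Lib.P252.CompleteMain

/-!
# P252: the affine Bernstein statement for additively separable functions with closed graph

Let `Ω ⊆ ℝⁿ` be nonempty, open and convex and let `u(x) = ∑ᵢ fᵢ(xᵢ)` on `Ω` be smooth with
positive definite Hessian, solving the affine maximal equation (AM) on `Ω`.  If the graph of
`u` over `Ω` is a closed subset of `ℝⁿ × ℝ`, then `Ω = ℝⁿ` and `u` is a quadratic polynomial
with positive definite quadratic part.
-/

namespace Vale.Agent.Results.P252.SeparableComplete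

open Vale.Agent.Lib.P252
open scoped ContDiff

theorem result (n : ℕ) (Ω : Set (Fin n → ℝ)) (u : (Fin n → ℝ) → ℝ)
    (hΩ : IsOpen Ω) (hconv : Convex ℝ Ω) (hne : Ω.Nonempty)
    (hu : ContDiffOn ℝ ∞ u Ω)
    (hsep : ∃ f : Fin n → ℝ → ℝ, ∀ x ∈ Ω, u x = ∑ i, f i (x i))
    (hpos : ∀ x ∈ Ω, (hess u x).PosDef)
    (hAM : ∀ x ∈ Ω, amOp u x = 0)
    (hgraph : IsClosed {p : (Fin n → ℝ) × ℝ | p.1 ∈ Ω ∧ p.2 = u p.1}) :
    Ω = Set.univ ∧
      ∃ (A : Matrix (Fin n) (Fin n) ℝ) (b : Fin n → ℝ) (c : ℝ), A.PosDef ∧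
        ∀ x, u x = 1 / 2 * (x ⬝ᵥ A.mulVec x) + b ⬝ᵥ x + c := by
  obtain ⟨f, hf⟩ := hsep
  obtain ⟨hΩu, hγ, hq⟩ := separable_complete_aux hΩ hconv hne hu hf hpos hAM hgraph
  refine ⟨hΩu, Matrix.diagonal fun i => deriv (deriv (f i)) 0, fun i => deriv (f i) 0,
    ∑ i, f i 0, Matrix.PosDef.diagonal hγ, fun x => ?_⟩
  rw [hq x]
  simp only [dotProduct, Matrix.mulVec_diagonal, Finset.sum_add_distrib, Finset.mul_sum]
  have h1 : ∑ i, deriv (deriv (f i)) 0 / 2 * x i ^ 2 =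
      ∑ i, 1 / 2 * (x i * (deriv (deriv (f i)) 0 * x i)) :=
    Finset.sum_congr rfl fun i _ => by ring
  rw [h1]
  ring

end Vale.Agent.Results.P252.SeparableComplete
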