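import Vale.Agent.Lib.P252.Entire

/-!
# P252: the entire-graph affine Bernstein statement for additively separable functions

Every smooth function `u(x) = ∑ᵢ fᵢ(xᵢ)` on `ℝⁿ` with positive definite Hessian that solves
the affine maximal equation (AM) is a quadratic polynomial with positive definite
quadratic part, in every dimension `n`.
-/

namespace Vale.Agent.Results.P252.SeparableEntire

open Vale.Agent.Lib.P252
open scoped ContDiff

theorem result (n : ℕ) (u : (Fin n → ℝ) → ℝ) (hu : ContDiff ℝ ∞ u)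
    (hsep : ∃ f : Fin n → ℝ → ℝ, ∀ x, u x = ∑ i, f i (x i))
    (hpos : ∀ x, (hess u x).PosDef)
    (hAM : ∀ x, amOp u x = 0) :
    ∃ (A : Matrix (Fin n) (Fin n) ℝ) (b : Fin n → ℝ) (c : ℝ), A.PosDef ∧
      ∀ x, u x = 1 / 2 * (x ⬝ᵥ A.mulVec x) + b ⬝ᵥ x + c := by
  obtain ⟨f, hf⟩ := hsep
  obtain ⟨hγ, hq⟩ := separable_entire_aux u hu f hf hpos hAM
  refine ⟨Matrix.diagonal fun i => deriv (deriv (f i)) 0, fun i => deriv (f i) 0,
    ∑ i, f i 0, Matrix.PosDef.diagonal hγ, fun x => ?_⟩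
  rw [hq x]
  simp only [dotProduct, Matrix.mulVec_diagonal, Finset.sum_add_distrib, Finset.mul_sum]
  have h1 : ∑ i, deriv (deriv (f i)) 0 / 2 * x i ^ 2 =
      ∑ i, 1 / 2 * (x i * (deriv (deriv (f i)) 0 * x i)) :=
    Finset.sum_congr rfl fun i _ => by ring
  rw [h1]
  ring

end Vale.Agent.Results.P252.SeparableEntire
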